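import Crest.Agent.H9.RI.Defs

/-! Task `T_cake`. -/

set_option autoImplicit false
set_option linter.deprecated false

noncomputable section

namespace Crest.Agent.H6.RI

open MeasureTheory Set Filter Crest.Agent.H2.RP Crest.Agent.H9.RI

theorem fub {X : Type*} [MeasurableSpace X] (ν : Measure X) [IsFiniteMeasure ν] (m : Measure ℝ)
    [IsFiniteMeasure m] {W : Set (ℝ × X)} (hW : MeasurableSet W) {g : X → ℝ}
    (hg : Integrable g ν) :
    Integrable (fun a => ∫ z in {z | (a, z) ∈ W}, g z ∂ν) m ∧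
    Integrable (fun z => m.real {a | (a, z) ∈ W} * g z) ν ∧
    ∫ a, ∫ z in {z | (a, z) ∈ W}, g z ∂ν ∂m = ∫ z, m.real {a | (a, z) ∈ W} * g z ∂ν := by
  have hF : Integrable (W.indicator fun p : ℝ × X => g p.2) (m.prod ν) :=
    (hg.comp_snd m).indicator hW
  have e1 : ∀ a, ∫ z, W.indicator (fun p : ℝ × X => g p.2) (a, z) ∂ν =
      ∫ z in {z | (a, z) ∈ W}, g z ∂ν := fun a => by
    rw [← integral_indicator (s := {z | (a, z) ∈ W}) (measurable_prodMk_left hW)]
    rfl
  have e2 : ∀ z, ∫ a, W.indicator (fun p : ℝ × X => g p.2) (a, z) ∂m =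
      m.real {a | (a, z) ∈ W} * g z := fun z => by
    rw [← smul_eq_mul, ← integral_indicator_const (s := {a | (a, z) ∈ W}) _
      (measurable_prodMk_right hW)]
    rfl
  refine ⟨?_, ?_, ?_⟩
  · simpa only [e1] using hF.integral_prod_left
  · simpa only [e2] using hF.integral_prod_right
  · have := integral_integral_swap (f := fun a z => W.indicator (fun p : ℝ × X => g p.2) (a, z)) hF
    simpa only [e1, e2] using this

theorem meas_mv (θ : ℝ) : Measurable fun z : Cir × ℤ => mv θ z.1 z.2 :=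
  measurable_from_prod_countable_left fun n => measurable_add_const ((n * θ : ℝ) : Cir)

theorem RB.int {v : Cir → ℝ} {R : ℝ} (hv : RB v R) : Integrable v mu :=
  Integrable.of_bound hv.1.aestronglyMeasurable R (Eventually.of_forall hv.2)

theorem cake_aux {X : Type*} [MeasurableSpace X] (ν : Measure X) [IsFiniteMeasure ν] {R : ℝ}
    {u w : X → ℝ} (hu : Measurable u) (hw : Measurable w) (hu' : ∀ z, |u z| ≤ R)
    (hw' : ∀ z, |w z| ≤ R) :
    Integrable (fun a => ν.real {z | ¬ a < u z ∧ a + 1 < w z}) (volume.restrict (Ico (-R) R)) ∧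
    ν.real {z | u z + 2 ≤ w z} ≤
      ∫ a in Ico (-R) R, ν.real {z | ¬ a < u z ∧ a + 1 < w z} := by
  have hW : MeasurableSet {p : ℝ × X | ¬ p.1 < u p.2 ∧ p.1 + 1 < w p.2} :=
    (measurableSet_lt measurable_fst (hu.comp measurable_snd)).compl.inter
      (measurableSet_lt (measurable_fst.add_const 1) (hw.comp measurable_snd))
  obtain ⟨h1, h2, h3⟩ := fub ν (volume.restrict (Ico (-R) R)) hW (integrable_const (1 : ℝ))
  simp only [mem_setOf_eq, integral_const, smul_eq_mul, mul_one, measureReal_restrict_apply_univ]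
    at h1 h2 h3
  refine ⟨h1, ?_⟩
  have hs : MeasurableSet {z | u z + 2 ≤ w z} := measurableSet_le (hu.add_const 2) hw
  rw [h3, ← integral_indicator_one hs]
  refine integral_mono ((integrable_const (1 : ℝ)).indicator hs) h2 fun z => ?_
  by_cases hz : z ∈ {z | u z + 2 ≤ w z}
  · rw [indicator_of_mem hz]
    have hz' : u z + 2 ≤ w z := hz
    have a1 := abs_le.1 (hu' z)
    have a2 := abs_le.1 (hw' z)
    have : (volume.restrict (Ico (-R) R)).real (Ico (u z) (u z + 1)) = 1 := by
      rw [measureReal_restrict_apply measurableSet_Ico,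
        inter_eq_left.2 (Ico_subset_Ico a1.1 (by linarith)), Real.volume_real_Ico_of_le (by linarith)]
      ring
    change (1 : ℝ) ≤ _
    rw [← this]
    exact measureReal_mono fun a ha => ⟨not_lt.2 ha.1, by linarith [ha.2]⟩
  · rw [indicator_of_notMem hz]; exact measureReal_nonneg

theorem t_cake : T_cake := by
  intro θ ρ ρ' d R ν _ hρ hρ' hd hmean hsym hle
  have hW : MeasurableSet {p : ℝ × Cir | p.1 < d p.2} :=
    measurableSet_lt measurable_fst (hd.1.comp measurable_snd)
  have hg : Integrable (fun x => ρ' x - ρ x) mu := (RB.int hρ').sub (RB.int hρ)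
  obtain ⟨h1, -, h3⟩ := fub mu (volume.restrict (Ico (-R) R)) hW hg
  simp only [mem_setOf_eq] at h1 h3
  have e : ∀ x, (volume.restrict (Ico (-R) R)).real {a | a < d x} = d x + R := fun x => by
    have a1 := abs_le.1 (hd.2 x)
    have : {a | a < d x} ∩ Ico (-R) R = Ico (-R) (d x) := by
      ext a; simp only [mem_inter_iff, mem_setOf_eq, mem_Ico]
      exact ⟨fun h => ⟨h.2.1, h.1⟩, fun h => ⟨h.2, h.1, h.2.trans_le a1.2⟩⟩
    rw [measureReal_restrict_apply (s := Ico (-R) R) (t := {a | a < d x}) measurableSet_Iio, this,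
      Real.volume_real_Ico_of_le a1.1]
    ring
  have hgd : Integrable (fun x => (ρ' x - ρ x) * d x) mu :=
    hg.mul_bdd hd.1.aestronglyMeasurable (Eventually.of_forall hd.2)
  have e2 : ∫ x, (d x + R) * (ρ' x - ρ x) ∂mu = ∫ x, (ρ' x - ρ x) * d x ∂mu := by
    have : ∀ x, (d x + R) * (ρ' x - ρ x) = (ρ' x - ρ x) * d x + R * (ρ' x - ρ x) := fun x => by
      ring
    simp only [this]
    rw [integral_add hgd (hg.const_mul R), integral_const_mul,
      integral_sub (RB.int hρ') (RB.int hρ), hmean]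
    ring
  simp only [e] at h3
  rw [e2] at h3
  have m1 : Measurable fun z : Cir × ℤ => d z.1 := hd.1.comp measurable_fst
  have m2 : Measurable fun z : Cir × ℤ => d (mv θ z.1 z.2) := hd.1.comp (meas_mv θ)
  obtain ⟨i1, b1⟩ := cake_aux ν m1 m2 (fun z => hd.2 _) (fun z => hd.2 _)
  obtain ⟨i2, b2⟩ := cake_aux ν m2 m1 (fun z => hd.2 _) (fun z => hd.2 _)
  have hs : ∀ a : ℝ, MeasurableSet {x | a < d x} := fun a => measurableSet_lt measurable_const hd.1
  have e3 : ∀ a : ℝ, ν.real {z : Cir × ℤ | ¬ a < d (mv θ z.1 z.2) ∧ a + 1 < d z.1} =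
      ν.real {z : Cir × ℤ | ¬ a < d z.1 ∧ a + 1 < d (mv θ z.1 z.2)} := fun a => by
    have := hsym _ _ (hs a).compl (hs (a + 1))
    refine Eq.trans ?_ this.symm
    congr 1; ext z; simp [EE, and_comm]
  simp only [e3] at b2
  have b3 : ν.real {z | 2 ≤ |d (mv θ z.1 z.2) - d z.1|} ≤
      ν.real {z : Cir × ℤ | d z.1 + 2 ≤ d (mv θ z.1 z.2)} +
        ν.real {z : Cir × ℤ | d (mv θ z.1 z.2) + 2 ≤ d z.1} := by
    refine (measureReal_mono fun z hz => ?_).trans (measureReal_union_le _ _)
    rcases le_abs'.1 (show 2 ≤ |d (mv θ z.1 z.2) - d z.1| from hz) with h | h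
    · exact Or.inr (by simp only [mem_setOf_eq]; linarith)
    · exact Or.inl (by simp only [mem_setOf_eq]; linarith)
  have b4 : ∫ a in Ico (-R) R, ν.real {z : Cir × ℤ | ¬ a < d z.1 ∧ a + 1 < d (mv θ z.1 z.2)} / 2 ≤
      ∫ a in Ico (-R) R, ∫ x in {x | a < d x}, (ρ' x - ρ x) ∂mu := by
    refine integral_mono (i1.div_const 2) h1 fun a => ?_
    have := hle a
    change _ ≤ ∫ x in {x | a < d x}, (ρ' x - ρ x) ∂mu
    rw [integral_sub (RB.int hρ').integrableOn (RB.int hρ).integrableOn]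
    change ν.real (EE θ {x | a < d x}ᶜ {x | a + 1 < d x}) / 2 ≤ _
    linarith
  rw [integral_div, h3] at b4
  linarith

end Crest.Agent.H6.RI
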