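import Crest.Agent.H9.RI.Defs2

/-! Task `T_geo`. -/

set_option autoImplicit false
set_option linter.deprecated false

noncomputable section

namespace Crest.Agent.H6.RI

open MeasureTheory Set Filter Crest.Agent.H2.RP Crest.Agent.H9.RI
open scoped Classical

theorem mv_add' (θ : ℝ) (x : Cir) (a b : ℤ) : mv θ (mv θ x a) b = mv θ x (a + b) := by
  rw [mv, mv, mv, add_assoc, ← AddCircle.coe_add]; push_cast; rw [add_mul]

theorem t_geo : T_geo := by
  intro θ L D hD hit
  have e1 : ∀ x, ∃ i : ℕ, mv θ x (-(i : ℤ)) ∈ D := fun x => (hit x).imp fun _ h => h.2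
  have e2' : ∀ x, ∃ j : ℕ, j ≤ L ∧ 1 ≤ j ∧ mv θ x j ∈ D := fun x => by
    obtain ⟨i, hi, h⟩ := hit (mv θ x L)
    rw [mv_add'] at h
    exact ⟨L - i, by omega, by omega, by rw [Nat.cast_sub hi.le, sub_eq_add_neg]; exact h⟩
  have e2 : ∀ x, ∃ j : ℕ, 1 ≤ j ∧ mv θ x j ∈ D := fun x => (e2' x).imp fun _ h => h.2
  set pos : Cir → ℕ := fun x => Nat.find (e1 x) with hpos
  set rem : Cir → ℕ := fun x => Nat.find (e2 x) with hrem
  have pD : ∀ x, mv θ x (-(pos x : ℤ)) ∈ D := fun x => Nat.find_spec (e1 x)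
  have rD : ∀ x, 1 ≤ rem x ∧ mv θ x (rem x) ∈ D := fun x => Nat.find_spec (e2 x)
  have pmin : ∀ x (i : ℕ), mv θ x (-(i : ℤ)) ∈ D → pos x ≤ i := fun x i h => Nat.find_min' _ h
  have rmin : ∀ x (j : ℕ), 1 ≤ j → mv θ x j ∈ D → rem x ≤ j := fun x j h h' =>
    Nat.find_min' _ ⟨h, h'⟩
  have gap : ∀ x (i : ℤ), -(pos x : ℤ) < i → i < rem x → mv θ x i ∉ D := fun x i h1 h2 h => by
    rcases le_or_gt i 0 with h0 | h0
    · have := pmin x (-i).toNat (by rw [Int.toNat_of_nonneg (by omega), neg_neg]; exact h)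
      omega
    · have := rmin x i.toNat (by omega) (by rw [Int.toNat_of_nonneg h0.le]; exact h)
      omega
  have key : ∀ x (k : ℤ), -(pos x : ℤ) ≤ k → k < rem x →
      (pos (mv θ x k) : ℤ) = pos x + k ∧ (rem (mv θ x k) : ℤ) = rem x - k := fun x k h1 h2 => by
    have a1 := pmin (mv θ x k) (pos x + k).toNat (by
      rw [Int.toNat_of_nonneg (by omega), mv_add', show k + -(pos x + k) = -(pos x : ℤ) by ring]
      exact pD x)
    have a2 := rmin (mv θ x k) (rem x - k).toNat (by omega) (by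
      rw [Int.toNat_of_nonneg (by omega), mv_add', show k + (rem x - k) = (rem x : ℤ) by ring]
      exact (rD x).2)
    have b1 := pD (mv θ x k)
    have b2 := rD (mv θ x k)
    rw [mv_add'] at b1 b2
    have c1 := fun u v => gap x _ u v b1
    have c2 := fun u v => gap x _ u v b2.2
    have := b2.1
    constructor
    · by_contra h; exact c1 (by omega) (by omega)
    · by_contra h; exact c2 (by omega) (by omega)
  have mm : ∀ k : ℤ, MeasurableSet {x | mv θ x k ∈ D} := fun k => measurable_add_const _ hD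
  refine ⟨pos, rem, hD, measurable_find e1 fun i => mm _,
    measurable_find e2 fun j => (MeasurableSet.const _).inter (mm _), fun x => ?_,
    fun x => (rD x).1, fun x => ?_, fun x h => ?_, fun x h => ?_, pD, fun x => (rD x).2,
    fun x k h => ?_⟩
  · obtain ⟨i, hi, h⟩ := hit x
    exact (pmin x i h).trans_lt hi
  · obtain ⟨j, hj, h⟩ := e2' x
    exact (rmin x j h.1 h.2).trans hj
  · have h1 := rD x
    have h2 : rem x ≠ 1 := fun e => h (by simpa [e] using h1.2)
    have := key x 1 (by omega) (by omega)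
    omega
  · have a := pmin (mv θ x 1) 0 (by rw [mv_add']; simpa using h)
    have b := rmin x 1 le_rfl (by simpa using h)
    have := (rD x).1
    omega
  · have h1 := rD x
    refine key x k ?_ ?_
    · by_contra hc
      exact h (-(pos x : ℤ)) (Or.inr ⟨by simp only; omega, by omega⟩) (pD x)
    · by_contra hc
      exact h (rem x) (Or.inl ⟨by omega, by simp only; omega⟩) h1.2

end Crest.Agent.H6.RI
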