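import Crest.Agent.H6.RI.Alg
import Crest.Agent.H9.RI.Defs

/-! Tasks `T_vt` and `T_ker`. -/

set_option autoImplicit false
set_option linter.deprecated false

noncomputable section

namespace Crest.Agent.H6.RI

open MeasureTheory Filter Crest.AnalysisR.RotationRep Crest.Agent.H2.RP Crest.Agent.H4.VD
open Crest.Agent.H9.RI
open scoped InnerProductSpace ComplexConjugate

theorem t_vt : T_vt := fun θ _ _ hUV =>
  ⟨TT θ, hUV, vN_sub hUV, fun _ hx _ hh => (comm_pi0 hx hh).symm, fun _ => rfl⟩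

variable {θ : ℝ} {U V : Op} {T : VT HH} {x p : Op} {h : Cir → ℂ}

theorem S_pi (hT : Setup θ U V T) (hh : BM h) : pi θ h ∈ T.M := hT.sub (pi_mem hT.hUV hh)

theorem S_RC (hT : Setup θ U V T) (hx : x ∈ T.M) : RC x := fun h hh => (hT.rc x hx h hh).symm

theorem S_t (hT : Setup θ U V T) (x : Op) : T.t (star x * x) = ‖x (dl 0 0)‖ ^ 2 := by
  rw [VT.t, hT.tau, ← TT_t θ, t_star_mul]

theorem S_tau_mul_pi (hT : Setup θ U V T) (hx : x ∈ T.M) (hh : BM h) :
    T.τ (x * pi θ h) = ∫ t, h t * k0 x t ∂mu := by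
  rw [hT.tau]; exact tau_mul_pi (S_RC hT hx) hh

theorem S_k0_nonneg (hT : Setup θ U V T) (hp : IsStarProjection p) (hM : p ∈ T.M) :
    ∀ᵐ t ∂mu, 0 ≤ (k0 p t).re ∧ (k0 p t).im = 0 := by
  have hi := k0_int p
  have key : ∀ B, MeasurableSet B → ∃ r : ℝ, 0 ≤ r ∧ ∫ t in B, k0 p t ∂mu = r := fun B hB =>
    ⟨_, VT.t_star_mul_nonneg _, by
      rw [← tau_proj_mul hp hM (pi_ind_proj (θ := θ) hB) (S_pi hT (BM.ind hB)),
        S_tau_mul_pi hT hM (BM.ind hB), ← integral_indicator hB]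
      congr 1; funext t; by_cases ht : t ∈ B <;> simp [ind, ht]⟩
  have h1 : 0 ≤ᵐ[mu] fun t => (k0 p t).re := by
    refine ae_nonneg_of_forall_setIntegral_nonneg hi.re fun B hB _ => ?_
    obtain ⟨r, hr, e⟩ := key B hB
    have := integral_re (𝕜 := ℂ) (hi.integrableOn (s := B))
    simp only [RCLike.re_to_complex] at this
    rw [this, e]; simpa using hr
  have h2 : (fun t => (k0 p t).im) =ᵐ[mu] 0 := by
    refine Integrable.ae_eq_zero_of_forall_setIntegral_eq_zero hi.im fun B hB _ => ?_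
    obtain ⟨r, hr, e⟩ := key B hB
    have := integral_im (𝕜 := ℂ) (hi.integrableOn (s := B))
    simp only [RCLike.im_to_complex] at this
    rw [this, e]; simp
  filter_upwards [h1, h2] with t a b using ⟨a, b⟩

theorem S_k0_eq_rho (hT : Setup θ U V T) (hp : IsStarProjection p) (hM : p ∈ T.M) :
    k0 p =ᵐ[mu] fun t => (rho p t : ℂ) := by
  filter_upwards [S_k0_nonneg hT hp hM, S_k0_nonneg hT hp.one_sub (VT.sub_mem VT.one_mem hM),
    k0_one_sub p] with t h1 h2 h3
  rw [h3] at h2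
  have h4 : (k0 p t).re ≤ 1 := by simpa using h2.1
  rw [rho, min_eq_right h4, max_eq_right h1.1]
  exact Complex.ext (by simp) (by simpa using h1.2)

theorem RB.bm {v : Cir → ℝ} {R : ℝ} (hv : RB v R) : BM fun t => (v t : ℂ) :=
  ⟨Complex.measurable_ofReal.comp hv.1, R, fun t => by
    rw [Complex.norm_real, Real.norm_eq_abs]; exact hv.2 t⟩

theorem nu_zero (x : Op) {ρ : Cir → ℝ} (hm : Measurable ρ) (h0 : ∀ t, 0 ≤ ρ t) (h1 : ∀ t, ρ t ≤ 1)
    (e : kx x 0 =ᵐ[mu] fun t => (ρ t : ℂ)) :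
    (nu x).real {z | z.2 = 0} = ∫ t, ρ t ^ 2 ∂mu := by
  have hs : MeasurableSet {z : Cir × ℤ | z.2 = 0} :=
    measurable_snd (MeasurableSet.of_discrete (s := {n : ℤ | n = 0}))
  rw [Measure.real, ← lintegral_indicator_one hs, lintegral_nu x (measurable_one.indicator hs),
    tsum_eq_single 0 (fun n hn => by simp [hn]),
    integral_eq_lintegral_of_nonneg_ae (Eventually.of_forall fun t => sq_nonneg _)
      (hm.pow_const 2).aestronglyMeasurable]
  congr 1
  refine lintegral_congr_ae ?_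
  filter_upwards [e] with t h2
  rw [h2, ENNReal.ofReal_pow (h0 t), ← ofReal_norm_eq_enorm, Complex.norm_real,
    Real.norm_of_nonneg (h0 t)]
  simp

theorem t_ker : T_ker := fun θ U V T q hT hM hq => by
  refine ⟨rho q, nu q, rho_meas q, fun t => ⟨rho_nonneg q t, rho_le_one q t⟩, inferInstance,
    fun h R hh => ?_, fun S S' hS hS' => ?_,
    nu_zero q (rho_meas q) (rho_nonneg q) (rho_le_one q) (S_k0_eq_rho hT hq hM)⟩
  · rw [VT.t, pr', S_tau_mul_pi hT hM (RB.bm hh),
      integral_congr_ae (g := fun t => ((rho q t * h t : ℝ) : ℂ)), integral_complex_ofReal,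
      Complex.ofReal_re]
    filter_upwards [S_k0_eq_rho hT hq hM] with t h1
    rw [h1]; push_cast; ring
  · have h1 := nu_pair (θ := θ) (S_RC hT hM) hS hS'
    have a := pi_ind_proj (θ := θ) hS
    have b := pi_ind_proj (θ := θ) hS'
    have aM := S_pi hT (BM.ind hS)
    have bM := S_pi hT (BM.ind hS')
    change (nu q).real {z | z.1 ∈ S ∧ tg θ z ∈ S'} =
      T.t (pi θ (ind S') * q * pi θ (ind S) * q)
    rw [h1, ← S_t hT, star_mul, star_mul, a.isSelfAdjoint.star_eq, b.isSelfAdjoint.star_eq,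
      hq.isSelfAdjoint.star_eq]
    have e : pi θ (ind S) * (q * pi θ (ind S')) * (pi θ (ind S') * q * pi θ (ind S)) =
        (pi θ (ind S) * q) * (pi θ (ind S') * q * pi θ (ind S)) := by
      simp only [mul_assoc]; rw [← mul_assoc (pi θ (ind S')) (pi θ (ind S')), b.isIdempotentElem.eq]
    rw [e, VT.t_comm (VT.mul_mem aM hM) (VT.mul_mem (VT.mul_mem bM hM) aM), ← mul_assoc,
      mul_assoc _ (pi θ (ind S)) (pi θ (ind S)), a.isIdempotentElem.eq]

end Crest.Agent.H6.RI
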