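import Mathlib
import Crest.Agent.H2.RP.Ker
import Crest.Agent.H4.VD.Dim

/-! The commutant of the right operators on `ℓ²(ℤ × ℤ)` as a tracial algebra, and densities. -/

set_option autoImplicit false
set_option linter.deprecated false

noncomputable section

namespace Crest.Agent.H6.RI

open MeasureTheory Filter Crest.AnalysisR.RotationRep Crest.Agent.H2.RP Crest.Agent.H4.VD
open scoped InnerProductSpace ComplexConjugate

theorem fl_orth : Orthonormal ℂ (fun i : ℤ × ℤ => dl i.2 i.1) := by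
  rw [orthonormal_iff_ite]
  intro i j
  rw [inner_dl]
  simp [Prod.ext_iff, and_comm]

theorem fl_total : (Submodule.span ℂ (Set.range fun i : ℤ × ℤ => dl i.2 i.1))ᗮ = ⊥ := by
  rw [eq_bot_iff]
  intro ξ hξ
  rw [Submodule.mem_bot]
  refine vec_ext fun a b => ?_
  rw [inner_zero_right]
  exact hξ _ (Submodule.subset_span ⟨(b, a), rfl⟩)

/-- the flip of the two coordinates -/
def Fl : HH →L[ℂ] HH :=
  (HilbertBasis.mkOfOrthogonalEqBot fl_orth fl_total).repr.symm.toContinuousLinearEquiv.toContinuousLinearMap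

theorem Fl_dl (a b : ℤ) : Fl (dl a b) = dl b a := by
  change (HilbertBasis.mkOfOrthogonalEqBot fl_orth fl_total).repr.symm (dl a b) = _
  rw [dl, HilbertBasis.repr_symm_single, HilbertBasis.coe_mkOfOrthogonalEqBot]

/-- the phase -/
def ph (θ : ℝ) (a n : ℤ) : ℂ := Complex.exp (2 * Real.pi * Complex.I * θ * a * n)

theorem ph_conj (θ : ℝ) (a n : ℤ) : conj (ph θ a n) = ph θ a (-n) := by
  rw [ph, ph, ← Complex.exp_conj]; congr 1; simp [Complex.conj_ofReal, map_ofNat]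

theorem ph_zero_left (θ : ℝ) (n : ℤ) : ph θ 0 n = 1 := by simp [ph]

theorem ph_zero (a n : ℤ) : ph 0 a n = 1 := by simp [ph]

theorem pi_f_dl (θ : ℝ) (n a b : ℤ) : pi θ (fourier n) (dl a b) = ph θ a n • dl a (b + n) :=
  pi_fourier_dl n a b

/-- right multiplication by `U ^ a` -/
def RU (θ : ℝ) (a : ℤ) : HH →L[ℂ] HH := Fl * pi θ (fourier a) * Fl

theorem RU_dl (θ : ℝ) (a c d : ℤ) : RU θ a (dl c d) = ph θ d a • dl (c + a) d := by
  change Fl (pi θ (fourier a) (Fl (dl c d))) = _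
  rw [Fl_dl, pi_f_dl, map_smul, Fl_dl]

theorem star_RU (θ : ℝ) (a : ℤ) : star (RU θ a) = RU θ (-a) :=
  op_ext fun c d => vec_ext fun e f => by
    rw [inner_star', RU_dl, RU_dl, inner_smul_left, inner_smul_right, inner_dl, inner_dl, ph_conj]
    by_cases h : e + a = c ∧ f = d
    · rw [if_pos h, if_pos ⟨by omega, h.2⟩, h.2]
    · rw [if_neg h, if_neg fun h' => h ⟨by omega, h'.2⟩, mul_zero, mul_zero]

/-- the right operators -/
def CC (θ : ℝ) : Set (HH →L[ℂ] HH) := {c | ∃ h, BM h ∧ c = pi 0 h} ∪ Set.range (RU θ)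

theorem CC_star (θ : ℝ) : ∀ c ∈ CC θ, star c ∈ CC θ := by
  rintro c (⟨h, hh, rfl⟩ | ⟨a, rfl⟩)
  · exact Or.inl ⟨_, hh.star, (pi_star hh).symm⟩
  · exact Or.inr ⟨-a, (star_RU θ a).symm⟩

variable {θ : ℝ} {x y p : HH →L[ℂ] HH} {g h : Cir → ℂ}

theorem c_pi0 (hx : x ∈ Set.centralizer (CC θ)) (hh : BM h) : pi 0 h * x = x * pi 0 h :=
  hx _ (Or.inl ⟨h, hh, rfl⟩)

theorem c_RU (hx : x ∈ Set.centralizer (CC θ)) (a : ℤ) : RU θ a * x = x * RU θ a :=
  hx _ (Or.inr ⟨a, rfl⟩)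

theorem dl_eq (θ : ℝ) (a b : ℤ) : dl a b = pi 0 (fourier b) (RU θ a (dl 0 0)) := by
  rw [RU_dl, ph_zero_left, one_smul, pi_f_dl, ph_zero, one_smul, zero_add, zero_add]

theorem apply_dl (hx : x ∈ Set.centralizer (CC θ)) (a b : ℤ) :
    x (dl a b) = pi 0 (fourier b) (RU θ a (x (dl 0 0))) := by
  rw [dl_eq θ a b, ← ContinuousLinearMap.mul_apply, ← c_pi0 hx (BM.fourier b),
    ContinuousLinearMap.mul_apply, ← ContinuousLinearMap.mul_apply x, ← c_RU hx,
    ContinuousLinearMap.mul_apply]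

theorem sep (hx : x ∈ Set.centralizer (CC θ)) (h0 : x (dl 0 0) = 0) : x = 0 :=
  op_ext fun a b => by rw [apply_dl hx, h0, map_zero, map_zero]; rfl

theorem inner_apply_dl (hx : x ∈ Set.centralizer (CC θ)) (a b : ℤ) :
    ⟪dl 0 0, x (dl a b)⟫_ℂ = ph θ a (-b) * ⟪dl (-a) (-b), x (dl 0 0)⟫_ℂ := by
  rw [apply_dl hx, ← inner_star, ← pi_fourier_neg, ← inner_star, star_RU, pi_f_dl, ph_zero,
    one_smul, RU_dl, inner_smul_left, ph_conj, zero_add, zero_add, neg_neg]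
  congr 1
  rw [ph, ph]; congr 1; push_cast; ring

theorem tau_mul (hx : x ∈ Set.centralizer (CC θ)) (y : HH →L[ℂ] HH) :
    ⟪dl 0 0, (x * y) (dl 0 0)⟫_ℂ = ∑' i : ℤ × ℤ, ph θ i.1 (-i.2) *
      ⟪dl (-i.1) (-i.2), x (dl 0 0)⟫_ℂ * ⟪dl i.1 i.2, y (dl 0 0)⟫_ℂ := by
  rw [ContinuousLinearMap.mul_apply, ← inner_star, lp.inner_eq_tsum]
  refine tsum_congr fun i => ?_
  rw [← inner_apply_dl hx, ← inner_star, ← inner_conj_symm]
  simp [dl, lp.inner_single_left, lp.inner_single_right, mul_comm]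

theorem tau_comm (hx : x ∈ Set.centralizer (CC θ)) (hy : y ∈ Set.centralizer (CC θ)) :
    ⟪dl 0 0, (x * y) (dl 0 0)⟫_ℂ = ⟪dl 0 0, (y * x) (dl 0 0)⟫_ℂ := by
  rw [tau_mul hx, tau_mul hy, ← (Equiv.neg (ℤ × ℤ)).tsum_eq]
  refine tsum_congr fun i => ?_
  simp only [Equiv.neg_apply, Prod.fst_neg, Prod.snd_neg, neg_neg]
  have : ph θ (-i.1) i.2 = ph θ i.1 (-i.2) := by rw [ph, ph]; congr 1; push_cast; ring
  rw [this]; ring

theorem norm_dl' (a b : ℤ) : ‖dl a b‖ = 1 := by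
  rw [dl, lp.norm_single (by norm_num)]; simp

/-- the tracial algebra -/
def TT (θ : ℝ) : VT HH :=
  VT.ofVec (CC θ) (CC_star θ) (dl 0 0) (norm_dl' 0 0) (fun _ hx _ hy => tau_comm hx hy)
    (fun _ hx => sep hx)

theorem TT_M (θ : ℝ) : (TT θ).M = Set.centralizer (CC θ) := rfl

theorem TT_tau (θ : ℝ) (x : HH →L[ℂ] HH) : (TT θ).τ x = ⟪dl 0 0, x (dl 0 0)⟫_ℂ := rfl

theorem TT_t (θ : ℝ) (x : HH →L[ℂ] HH) : (TT θ).t x = (⟪dl 0 0, x (dl 0 0)⟫_ℂ).re := rfl

theorem comm_pi0 (hx : x ∈ (TT θ).M) (hh : BM h) : pi 0 h * x = x * pi 0 h := c_pi0 hx hh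

theorem t_star_mul (θ : ℝ) (x : HH →L[ℂ] HH) : (TT θ).t (star x * x) = ‖x (dl 0 0)‖ ^ 2 := by
  rw [TT_t, ContinuousLinearMap.mul_apply, inner_star', inner_self_eq_norm_sq_to_K]
  norm_cast

theorem pi_pi0 (hg : BM g) (hh : BM h) : pi 0 h * pi θ g = pi θ g * pi 0 h := by
  ext1 x
  refine HH_ext fun a => ?_
  filter_upwards [symm_pi_ae 0 hh (pi θ g x) a, symm_pi_ae θ hg x a,
    symm_pi_ae θ hg (pi 0 h x) a, symm_pi_ae 0 hh x a] with t h1 h2 h3 h4
  rw [ContinuousLinearMap.mul_apply, ContinuousLinearMap.mul_apply, h1, h2, h3, h4]; ring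

theorem pi_mem_M (hg : BM g) : pi θ g ∈ (TT θ).M := by
  rintro c (⟨h, hh, rfl⟩ | ⟨a, rfl⟩)
  · exact pi_pi0 hg hh
  · refine (comm_pi (fun n => op_ext fun c d => ?_) hg).symm
    rw [ContinuousLinearMap.mul_apply, ContinuousLinearMap.mul_apply, RU_dl, pi_f_dl, map_smul,
      map_smul, pi_f_dl, RU_dl, smul_smul, smul_smul]
    congr 1
    rw [ph, ph, ph, ph, ← Complex.exp_add, ← Complex.exp_add]; congr 1; push_cast; ring

variable {U V : HH →L[ℂ] HH}

theorem pair_zero (hUV : IsRotationPair θ U V) : IsRotationPair 0 U (pi 0 (fourier 1)) :=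
  ⟨hUV.1, fun a b => by
    have := pi_f_dl 0 1 a b
    rw [ph_zero] at this
    simpa [dl] using this⟩

theorem U_mem_M (hUV : IsRotationPair θ U V) : U ∈ (TT θ).M := by
  rintro c (⟨h, hh, rfl⟩ | ⟨a, rfl⟩)
  · simpa using pi_mul_U (pair_zero hUV) hh
  · refine op_ext fun c d => ?_
    rw [ContinuousLinearMap.mul_apply, ContinuousLinearMap.mul_apply, RU_dl, U_dl hUV, map_smul,
      U_dl hUV, RU_dl, add_right_comm]

theorem V_mem_M (hUV : IsRotationPair θ U V) : V ∈ (TT θ).M := by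
  rw [V_eq hUV]; exact pi_mem_M (BM.fourier 1)

theorem vN_sub (hUV : IsRotationPair θ U V) : vonNeumannGenerated {U, V} ⊆ (TT θ).M := by
  intro x hx c hc
  refine hx c ?_
  rintro m ((rfl | rfl) | ⟨m, (rfl | rfl), rfl⟩)
  · exact (U_mem_M hUV c hc).symm
  · exact (V_mem_M hUV c hc).symm
  · exact (VT.star_mem' (U_mem_M hUV) c hc).symm
  · exact (VT.star_mem' (V_mem_M hUV) c hc).symm

/-! densities -/

/-- the diagonal coefficient function of `x` -/
def k0 (x : HH →L[ℂ] HH) : L2 := WW.symm (x (dl 0 0)) 0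

theorem tau_pi_mul (x : HH →L[ℂ] HH) (hh : BM h) :
    ⟪dl 0 0, (pi θ h * x) (dl 0 0)⟫_ℂ = ∫ t, h t * k0 x t ∂mu := by
  rw [ContinuousLinearMap.mul_apply, ← WW.symm.inner_map_map, WW_symm_dl, lp.inner_single_left,
    L2.inner_def]
  refine integral_congr_ae ?_
  filter_upwards [symm_pi_ae θ hh (x (dl 0 0)) 0, coeFn_fourierLp (T := 1) 2 0] with t h1 h2
  rw [h1, h2, fourier_zero, k0]; simp

theorem tau_mul_pi' (hx : x ∈ (TT θ).M) (hh : BM h) :
    (TT θ).τ (x * pi θ h) = ∫ t, h t * k0 x t ∂mu := by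
  rw [(TT θ).tr _ hx _ (pi_mem_M hh), TT_tau, tau_pi_mul x hh]

theorem k0_int (x : HH →L[ℂ] HH) : Integrable (k0 x) mu :=
  (Lp.memLp (k0 x)).integrable (by norm_num)

theorem setInt_k0 (hx : x ∈ (TT θ).M) {B : Set Cir} (hB : MeasurableSet B) :
    ∫ t in B, k0 x t ∂mu = (TT θ).τ (x * pi θ (ind B)) := by
  rw [ind, tau_mul_pi' hx (BM.indicator hB), ← integral_indicator hB]
  congr 1; funext t; by_cases ht : t ∈ B <;> simp [ht]

theorem tau_proj_mul {T : VT HH} {q : HH →L[ℂ] HH} (hp : IsStarProjection p) (hpM : p ∈ T.M)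
    (hq : IsStarProjection q) (hqM : q ∈ T.M) :
    T.τ (p * q) = T.t (star (p * q) * (p * q)) := by
  rw [← VT.τ_star_mul, star_mul, hp.isSelfAdjoint.star_eq, hq.isSelfAdjoint.star_eq,
    ← mul_assoc, mul_assoc q, hp.isIdempotentElem.eq, mul_assoc,
    T.tr q hqM _ (VT.mul_mem hpM hqM), mul_assoc, hq.isIdempotentElem.eq]

theorem k0_nonneg (hp : IsStarProjection p) (hM : p ∈ (TT θ).M) :
    ∀ᵐ t ∂mu, 0 ≤ (k0 p t).re ∧ (k0 p t).im = 0 := by
  have hi := k0_int p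
  have key : ∀ B, MeasurableSet B → ∃ r : ℝ, 0 ≤ r ∧ ∫ t in B, k0 p t ∂mu = r := fun B hB =>
    ⟨_, VT.t_star_mul_nonneg _, by
      rw [setInt_k0 hM hB, tau_proj_mul hp hM (pi_ind_proj hB) (pi_mem_M (BM.indicator hB))]⟩
  have h1 : 0 ≤ᵐ[mu] fun t => (k0 p t).re := by
    refine ae_nonneg_of_forall_setIntegral_nonneg hi.re fun B hB _ => ?_
    obtain ⟨r, hr, e⟩ := key B hB
    have := integral_re (𝕜 := ℂ) (hi.integrableOn (s := B))
    simp only [RCLike.re_to_complex] at this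
    rw [this, e]; simpa using hr
  have h2 : (fun t => (k0 p t).im) =ᵐ[mu] 0 := by
    refine Integrable.ae_eq_zero_of_forall_setIntegral_eq_zero hi.im fun B hB _ => ?_
    obtain ⟨r, hr, e⟩ := key B hB
    have := integral_im (𝕜 := ℂ) (hi.integrableOn (s := B))
    simp only [RCLike.im_to_complex] at this
    rw [this, e]; simp
  filter_upwards [h1, h2] with t a b using ⟨a, b⟩

theorem k0_one_sub (x : HH →L[ℂ] HH) : k0 (1 - x) =ᵐ[mu] fun t => 1 - k0 x t := by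
  have : k0 (1 - x) = fourierLp 2 0 - k0 x := by
    rw [k0, k0, ContinuousLinearMap.sub_apply, ContinuousLinearMap.one_apply, map_sub, WW_symm_dl,
      lp.coeFn_sub, Pi.sub_apply, lp.single_apply, Pi.single_eq_same]
  rw [this]
  filter_upwards [Lp.coeFn_sub (fourierLp (T := 1) 2 0) (k0 x), coeFn_fourierLp (T := 1) 2 0]
    with t h1 h2
  rw [h1, Pi.sub_apply, h2, fourier_zero]

/-- the density of a projection, a measurable function with values in `[0,1]` -/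
def rho (x : HH →L[ℂ] HH) (t : Cir) : ℝ := max 0 (min 1 (k0 x t).re)

theorem rho_nonneg (x : HH →L[ℂ] HH) (t : Cir) : 0 ≤ rho x t := le_max_left _ _

theorem rho_le_one (x : HH →L[ℂ] HH) (t : Cir) : rho x t ≤ 1 :=
  max_le zero_le_one (min_le_left _ _)

theorem rho_meas (x : HH →L[ℂ] HH) : Measurable (rho x) :=
  measurable_const.max (measurable_const.min
    (Complex.measurable_re.comp (Lp.stronglyMeasurable (k0 x)).measurable))

theorem k0_eq_rho (hp : IsStarProjection p) (hM : p ∈ (TT θ).M) :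
    k0 p =ᵐ[mu] fun t => (rho p t : ℂ) := by
  filter_upwards [k0_nonneg hp hM, k0_nonneg hp.one_sub (VT.sub_mem VT.one_mem hM),
    k0_one_sub p] with t h1 h2 h3
  rw [h3] at h2
  have h4 : (k0 p t).re ≤ 1 := by simpa using h2.1
  rw [rho, min_eq_right h4, max_eq_right h1.1]
  exact Complex.ext (by simp) (by simpa using h1.2)

theorem tau_rho (hp : IsStarProjection p) (hM : p ∈ (TT θ).M) (hh : BM h) :
    (TT θ).τ (p * pi θ h) = ∫ t, (rho p t : ℂ) * h t ∂mu := by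
  rw [tau_mul_pi' hM hh]
  refine integral_congr_ae ?_
  filter_upwards [k0_eq_rho hp hM] with t h1
  rw [h1, mul_comm]

theorem t_rho (hp : IsStarProjection p) (hM : p ∈ (TT θ).M) {φ : Cir → ℝ}
    (hφ : BM fun t => (φ t : ℂ)) :
    (TT θ).t (p * pi θ fun t => (φ t : ℂ)) = ∫ t, rho p t * φ t ∂mu := by
  rw [VT.t, tau_rho hp hM hφ]
  simp only [← Complex.ofReal_mul, integral_complex_ofReal, Complex.ofReal_re]

theorem t_rho_ind (hp : IsStarProjection p) (hM : p ∈ (TT θ).M) {B : Set Cir}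
    (hB : MeasurableSet B) : (TT θ).t (p * pi θ (ind B)) = ∫ t in B, rho p t ∂mu := by
  have e : ind B = fun t => ((B.indicator (fun _ => (1 : ℝ)) t : ℝ) : ℂ) := by
    funext t; by_cases ht : t ∈ B <;> simp [ind, ht]
  rw [e, t_rho hp hM (e ▸ BM.indicator hB), ← integral_indicator hB]
  congr 1; funext t; by_cases ht : t ∈ B <;> simp [ht]

theorem t_eq_int_rho (hp : IsStarProjection p) (hM : p ∈ (TT θ).M) :
    (TT θ).t p = ∫ t, rho p t ∂mu := by
  have := t_rho hp hM (φ := fun _ => 1) (BM.const _)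
  simpa [pi_one] using this

theorem t_pi {φ : Cir → ℝ} (hφ : BM fun t => (φ t : ℂ)) :
    (TT θ).t (pi θ fun t => (φ t : ℂ)) = ∫ t, φ t ∂mu := by
  rw [TT_t, tau_pi hφ, integral_complex_ofReal, Complex.ofReal_re]

theorem t_pi_ind {B : Set Cir} (hB : MeasurableSet B) :
    (TT θ).t (pi θ (ind B)) = mu.real B := by
  rw [TT_t, ind, tau_pi (BM.indicator hB), integral_indicator hB]; simp

theorem RC_of_mem (hx : x ∈ (TT θ).M) : RC x := fun _ hh => comm_pi0 hx hh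

theorem kx_eq_rho (hp : IsStarProjection p) (hM : p ∈ (TT θ).M) :
    kx p 0 =ᵐ[mu] fun t => (rho p t : ℂ) := k0_eq_rho hp hM

theorem BM_rho (x : HH →L[ℂ] HH) : BM fun t => (rho x t : ℂ) :=
  ⟨Complex.measurable_ofReal.comp (rho_meas x), 1, fun t => by
    rw [Complex.norm_real, Real.norm_of_nonneg (rho_nonneg x t)]; exact rho_le_one x t⟩

theorem rho_int (x : HH →L[ℂ] HH) : Integrable (rho x) mu :=
  Integrable.of_bound (rho_meas x).aestronglyMeasurable 1 (Eventually.of_forall fun t => by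
    rw [Real.norm_of_nonneg (rho_nonneg x t)]; exact rho_le_one x t)

/-- `‖x* ξ‖ = ‖x ξ‖` on `M` -/
theorem norm_star_dl (hx : x ∈ (TT θ).M) : ‖star x (dl 0 0)‖ = ‖x (dl 0 0)‖ := by
  have h1 := t_star_mul θ x
  have h2 := t_star_mul θ (star x)
  rw [star_star, VT.t_comm hx (VT.star_mem' hx), h1] at h2
  exact ((pow_left_inj₀ (norm_nonneg _) (norm_nonneg _) two_ne_zero).1 h2).symm

/-- `τ(p S p S) = ‖S p S ξ‖²` -/
theorem t_pSpS {S : HH →L[ℂ] HH} (hp : IsStarProjection p) (hM : p ∈ (TT θ).M)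
    (hS : IsStarProjection S) (hSM : S ∈ (TT θ).M) :
    (TT θ).t (p * S * p * S) = ‖(S * p * S) (dl 0 0)‖ ^ 2 := by
  rw [← t_star_mul θ, star_mul, star_mul, hp.isSelfAdjoint.star_eq, hS.isSelfAdjoint.star_eq]
  have e : S * (p * S) * (S * p * S) = S * (p * S * p * S) := by
    simp only [mul_assoc]; rw [← mul_assoc S S, hS.isIdempotentElem.eq]
  rw [e, VT.t_comm hSM (VT.mul_mem (VT.mul_mem (VT.mul_mem hM hSM) hM) hSM), mul_assoc _ S S,
    hS.isIdempotentElem.eq]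

/-- `τ(p S) - τ(p S p S) = ‖(1 - S) p S ξ‖²` -/
theorem t_pS_sub {S : HH →L[ℂ] HH} (hp : IsStarProjection p) (hM : p ∈ (TT θ).M)
    (hS : IsStarProjection S) (hSM : S ∈ (TT θ).M) :
    (TT θ).t (p * S) - (TT θ).t (p * S * p * S) = ‖((1 - S) * p * S) (dl 0 0)‖ ^ 2 := by
  rw [← t_star_mul θ, star_mul, star_mul, hp.isSelfAdjoint.star_eq, hS.isSelfAdjoint.star_eq,
    hS.one_sub.isSelfAdjoint.star_eq]
  have e : S * (p * (1 - S)) * ((1 - S) * p * S) = S * (p * S - p * S * p * S) := by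
    simp only [mul_assoc]
    rw [← mul_assoc (1 - S) (1 - S), hS.one_sub.isIdempotentElem.eq, sub_mul, one_mul, mul_sub,
      ← mul_assoc p p, hp.isIdempotentElem.eq]
  rw [e, VT.t_comm hSM (VT.sub_mem (VT.mul_mem hM hSM)
    (VT.mul_mem (VT.mul_mem (VT.mul_mem hM hSM) hM) hSM)), sub_mul, mul_assoc _ S S,
    mul_assoc _ S S, hS.isIdempotentElem.eq, VT.t_sub]

end Crest.Agent.H6.RI
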